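import Vale.Agent.Lib.P028.Main

open Filter MeasureTheory

/-- Full measure for every sequence of targets on blocks of divisors: the moduli of block `k`
are multiples of `L k` and divisors of `N k`, and `L k` dominates the moduli of earlier blocks. -/
theorem Vale.Agent.Results.P028.RogersBlocks.result
    (ψ y : ℕ → ℝ) (hψ : ∀ q, 0 ≤ ψ q) (L N : ℕ → ℕ) (S : ℕ → Finset ℕ) (C : ℕ)
    (hL : ∀ k, 0 < L k) (hN : ∀ k, 0 < N k) (hS : ∀ k, ∀ q ∈ S k, L k ∣ q ∧ q ∣ N k)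
    (hgrow : ∀ k, ∑ j ∈ Finset.range k, ∑ q ∈ S j, q ≤ C * L k)
    (hdiv : ¬ Summable fun k => ∑ q ∈ S k,
      ((Nat.totient (q / L k) : ℝ) / ((q / L k : ℕ) : ℝ)) * min (ψ q) ((q : ℝ) / (2 * N k))) :
    ∀ᵐ x : ℝ, ∃ᶠ q : ℕ in atTop, ∃ a : ℤ, |(q : ℝ) * x - y q - a| < ψ q :=
  Vale.Agent.Lib.P028.block_theorem ψ y hψ L N S C hL hN hS hgrow hdiv
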