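import Vale.Agent.Results.P028.GcdSecondMoment
import Vale.Agent.Results.P028.RogersBlocks

open Filter MeasureTheory

/-- Full measure for moving targets in the two opposite regimes: supports with small gcd sums, and
heavily divisible supports (blocks of divisors). -/
theorem Vale.Agent.Results.P028.A0Conj.result :
    (∀ (ψ y : ℕ → ℝ) (_ : ∀ q, 0 ≤ ψ q) (_ : ∀ q, ψ q ≤ 1 / 2)
      (S : Set ℕ) [DecidablePred (· ∈ S)] (_ : 0 ∉ S)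
      (_ : ¬ Summable (S.indicator ψ))
      (_ : ∀ ε : ℝ, 0 < ε → ∃ᶠ N : ℕ in atTop,
        ∑ r ∈ (Finset.range N).filter (· ∈ S), ψ r *
            ((∑ q ∈ (Finset.range r).filter (· ∈ S), (Nat.gcd q r : ℝ)) / r)
          ≤ ε * (∑ r ∈ (Finset.range N).filter (· ∈ S), ψ r) ^ 2),
      ∀ᵐ x : ℝ, ∃ᶠ q : ℕ in atTop, ∃ a : ℤ, |(q : ℝ) * x - y q - a| < ψ q) ∧
    (∀ (ψ y : ℕ → ℝ) (_ : ∀ q, 0 ≤ ψ q) (L N : ℕ → ℕ) (S : ℕ → Finset ℕ) (C : ℕ)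
      (_ : ∀ k, 0 < L k) (_ : ∀ k, 0 < N k) (_ : ∀ k, ∀ q ∈ S k, L k ∣ q ∧ q ∣ N k)
      (_ : ∀ k, ∑ j ∈ Finset.range k, ∑ q ∈ S j, q ≤ C * L k)
      (_ : ¬ Summable fun k => ∑ q ∈ S k,
        ((Nat.totient (q / L k) : ℝ) / ((q / L k : ℕ) : ℝ)) * min (ψ q) ((q : ℝ) / (2 * N k))),
      ∀ᵐ x : ℝ, ∃ᶠ q : ℕ in atTop, ∃ a : ℤ, |(q : ℝ) * x - y q - a| < ψ q) :=
  ⟨fun ψ y h1 h2 S _ h0 hd hg =>
      Vale.Agent.Results.P028.GcdSecondMoment.result ψ y h1 h2 S h0 hd hg,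
    fun ψ y h L N S C hL hN hS hg hd =>
      Vale.Agent.Results.P028.RogersBlocks.result ψ y h L N S C hL hN hS hg hd⟩
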