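import Vale.Agent.Lib.P028.GcdSum

namespace Vale.Agent.Results.P028.GcdSecondMoment

open MeasureTheory Filter

/-- Moving target full measure theorem under a gcd second moment condition on the support `S`. -/
theorem result (ψ y : ℕ → ℝ) (hψ : ∀ q, 0 ≤ ψ q) (hψ2 : ∀ q, ψ q ≤ 1 / 2)
    (S : Set ℕ) [DecidablePred (· ∈ S)] (h0 : 0 ∉ S)
    (hdiv : ¬ Summable (S.indicator ψ))
    (hgcd : ∀ ε : ℝ, 0 < ε → ∃ᶠ N : ℕ in atTop,
      ∑ r ∈ (Finset.range N).filter (· ∈ S), ψ r *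
          ((∑ q ∈ (Finset.range r).filter (· ∈ S), (Nat.gcd q r : ℝ)) / r)
        ≤ ε * (∑ r ∈ (Finset.range N).filter (· ∈ S), ψ r) ^ 2) :
    ∀ᵐ x : ℝ, ∃ᶠ q : ℕ in atTop, ∃ a : ℤ, |(q : ℝ) * x - y q - a| < ψ q :=
  Vale.Agent.Lib.P028.gcd_sum_theorem ψ y hψ hψ2 S h0 hdiv hgcd

end Vale.Agent.Results.P028.GcdSecondMoment
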